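import Vale.Agent.P252.MathlibUsed
import Vale.Agent.P252.Defs
import Vale.Agent.P252.BernsteinDefs
import Vale.Agent.P252.H47.Complete

/-! Strict convexity of functions with positive definite Hessian and sections of Euclidean
complete graphs. -/

open scoped ContDiff Topology
open Filter

namespace Vale.Agent.P252

variable {n : ℕ}

section basic

variable {Ω : Set (EuclideanSpace ℝ (Fin n))} {u : EuclideanSpace ℝ (Fin n) → ℝ}

/-- Derivative in direction `v` as a combination of partial derivatives. -/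
lemma fderiv_apply_eq_sum_pd (f : EuclideanSpace ℝ (Fin n) → ℝ) (x v : EuclideanSpace ℝ (Fin n)) :
    fderiv ℝ f x v = ∑ i, v i * pd i f x := by
  have hv : v = ∑ i, v i • EuclideanSpace.single i (1 : ℝ) := by
    ext j
    simp [Finset.sum_apply, Pi.single_apply]
  conv_lhs => rw [hv]
  rw [map_sum]
  simp [pd]

lemma differentiableAt_pd_of (hΩ : IsOpen Ω) (hu : ContDiffOn ℝ ∞ u Ω) (i : Fin n)
    {x : EuclideanSpace ℝ (Fin n)} (hx : x ∈ Ω) : DifferentiableAt ℝ (pd i u) x := by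
  have h := contDiffOn_pd hΩ i u hu
  exact (h.contDiffAt (hΩ.mem_nhds hx)).differentiableAt (by simp)

/-- The second derivative along a line is the Hessian quadratic form. -/
lemma hasDerivAt_line (hΩ : IsOpen Ω) (hu : ContDiffOn ℝ ∞ u Ω)
    (x v : EuclideanSpace ℝ (Fin n)) {t : ℝ} (ht : x + t • v ∈ Ω) :
    HasDerivAt (fun s : ℝ => u (x + s • v)) (fderiv ℝ u (x + t • v) v) t := by
  have h1 : HasDerivAt (fun s : ℝ => x + s • v) ((1 : ℝ) • v) t :=
    ((hasDerivAt_id t).smul_const v).const_add x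
  rw [one_smul] at h1
  have h2 : HasFDerivAt u (fderiv ℝ u (x + t • v)) (x + t • v) :=
    ((hu.contDiffAt (hΩ.mem_nhds ht)).differentiableAt (by simp)).hasFDerivAt
  exact h2.comp_hasDerivAt t h1

lemma hasDerivAt_line2 (hΩ : IsOpen Ω) (hu : ContDiffOn ℝ ∞ u Ω)
    (x v : EuclideanSpace ℝ (Fin n)) {t : ℝ} (ht : x + t • v ∈ Ω) :
    HasDerivAt (fun s : ℝ => fderiv ℝ u (x + s • v) v)
      (∑ i, ∑ j, v i * v j * hess u (x + t • v) i j) t := by
  have h1 : HasDerivAt (fun s : ℝ => x + s • v) ((1 : ℝ) • v) t :=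
    ((hasDerivAt_id t).smul_const v).const_add x
  rw [one_smul] at h1
  have h3 : (fun s : ℝ => fderiv ℝ u (x + s • v) v) = fun s => ∑ j, v j * pd j u (x + s • v) := by
    funext s; exact fderiv_apply_eq_sum_pd u _ v
  rw [h3]
  have h4 : ∀ j : Fin n, HasDerivAt (fun s : ℝ => v j * pd j u (x + s • v))
      (v j * ∑ i, v i * hess u (x + t • v) i j) t := by
    intro j
    have h5 : HasFDerivAt (pd j u) (fderiv ℝ (pd j u) (x + t • v)) (x + t • v) :=
      (differentiableAt_pd_of hΩ hu j ht).hasFDerivAt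
    have h6 := (h5.comp_hasDerivAt t h1).const_mul (v j)
    rw [fderiv_apply_eq_sum_pd] at h6
    exact h6
  have h7 := HasDerivAt.fun_sum (u := Finset.univ) (fun j _ => h4 j)
  refine h7.congr_deriv ?_
  symm
  rw [Finset.sum_comm]
  apply Finset.sum_congr rfl
  intro j _
  rw [Finset.mul_sum]
  apply Finset.sum_congr rfl
  intro i _
  ring

lemma quad_pos747 {A : Matrix (Fin n) (Fin n) ℝ} (hA : A.PosDef) {v : EuclideanSpace ℝ (Fin n)}
    (hv : v ≠ 0) : 0 < ∑ i, ∑ j, v i * v j * A i j := by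
  have h := hA.dotProduct_mulVec_pos (x := fun i => v i) (by
    intro h; apply hv; ext i; exact congrFun h i)
  simp only [star_trivial, dotProduct, Matrix.mulVec, Finset.mul_sum] at h
  refine lt_of_lt_of_eq h ?_
  apply Finset.sum_congr rfl
  intro i _
  apply Finset.sum_congr rfl
  intro j _
  ring

/-- Strict tangent plane inequality. -/
theorem tangent_lt (hΩ : IsOpen Ω) (hcv : Convex ℝ Ω) (hu : ContDiffOn ℝ ∞ u Ω)
    (hpos : ∀ x ∈ Ω, (hess u x).PosDef) {x y : EuclideanSpace ℝ (Fin n)} (hx : x ∈ Ω)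
    (hy : y ∈ Ω) (hxy : y ≠ x) : u x + fderiv ℝ u x (y - x) < u y := by
  have hin := segment_mem hcv hx hy
  have hv : y - x ≠ 0 := sub_ne_zero.mpr hxy
  set v := y - x with hvdef
  have hd1 : ∀ t ∈ Set.Icc (0 : ℝ) 1, HasDerivAt (fun s : ℝ => u (x + s • v))
      (fderiv ℝ u (x + t • v) v) t := fun t ht => hasDerivAt_line hΩ hu x v (hin t ht)
  have hd2 : ∀ t ∈ Set.Icc (0 : ℝ) 1, HasDerivAt (fun s : ℝ => fderiv ℝ u (x + s • v) v)
      (∑ i, ∑ j, v i * v j * hess u (x + t • v) i j) t :=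
    fun t ht => hasDerivAt_line2 hΩ hu x v (hin t ht)
  obtain ⟨c, hc, hce⟩ := exists_hasDerivAt_eq_slope (fun s : ℝ => u (x + s • v))
    (fun t => fderiv ℝ u (x + t • v) v) (zero_lt_one)
    (fun t ht => (hd1 t ht).continuousAt.continuousWithinAt)
    (fun t ht => hd1 t ⟨ht.1.le, ht.2.le⟩)
  have hmono : StrictMonoOn (fun s : ℝ => fderiv ℝ u (x + s • v) v) (Set.Icc (0 : ℝ) 1) := by
    apply strictMonoOn_of_deriv_pos (convex_Icc 0 1)
      (fun t ht => (hd2 t ht).continuousAt.continuousWithinAt)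
    intro t ht
    rw [interior_Icc] at ht
    rw [(hd2 t ⟨ht.1.le, ht.2.le⟩).deriv]
    exact quad_pos747 (hpos _ (hin t ⟨ht.1.le, ht.2.le⟩)) hv
  have h1 := hmono (Set.left_mem_Icc.mpr zero_le_one) ⟨hc.1.le, hc.2.le⟩ hc.1
  simp only [zero_smul, add_zero, one_smul, sub_zero, div_one] at h1 hce
  have hvy : x + v = y := by rw [hvdef]; abel
  rw [hvy] at hce
  linarith

theorem tangent_le (hΩ : IsOpen Ω) (hcv : Convex ℝ Ω) (hu : ContDiffOn ℝ ∞ u Ω)
    (hpos : ∀ x ∈ Ω, (hess u x).PosDef) {x y : EuclideanSpace ℝ (Fin n)} (hx : x ∈ Ω)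
    (hy : y ∈ Ω) : u x + fderiv ℝ u x (y - x) ≤ u y := by
  by_cases h : y = x
  · subst h; simp
  · exact (tangent_lt hΩ hcv hu hpos hx hy h).le

/-- Strict monotonicity of the gradient. -/
theorem fderiv_strictMono (hΩ : IsOpen Ω) (hcv : Convex ℝ Ω) (hu : ContDiffOn ℝ ∞ u Ω)
    (hpos : ∀ x ∈ Ω, (hess u x).PosDef) {x y : EuclideanSpace ℝ (Fin n)} (hx : x ∈ Ω)
    (hy : y ∈ Ω) (hxy : y ≠ x) : 0 < (fderiv ℝ u y - fderiv ℝ u x) (y - x) := by
  have h1 := tangent_lt hΩ hcv hu hpos hx hy hxy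
  have h2 := tangent_lt hΩ hcv hu hpos hy hx hxy.symm
  have h3 : fderiv ℝ u y (x - y) = - fderiv ℝ u y (y - x) := by
    rw [← neg_sub, map_neg]
  simp only [sub_apply]
  linarith

theorem fderiv_injOn (hΩ : IsOpen Ω) (hcv : Convex ℝ Ω) (hu : ContDiffOn ℝ ∞ u Ω)
    (hpos : ∀ x ∈ Ω, (hess u x).PosDef) : Set.InjOn (fderiv ℝ u) Ω := by
  intro x hx y hy h
  by_contra hne
  have := fderiv_strictMono hΩ hcv hu hpos hx hy (Ne.symm hne)
  rw [h, sub_self] at this
  simp at this

/-- A smooth function with positive definite Hessian on an open convex set is strictly convex. -/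
theorem strictConvexOn_of_hess (hΩ : IsOpen Ω) (hcv : Convex ℝ Ω) (hu : ContDiffOn ℝ ∞ u Ω)
    (hpos : ∀ x ∈ Ω, (hess u x).PosDef) : StrictConvexOn ℝ Ω u := by
  refine ⟨hcv, ?_⟩
  intro x hx y hy hxy a b ha hb hab
  have hz : a • x + b • y ∈ Ω := hcv hx hy ha.le hb.le hab
  set z := a • x + b • y with hzdef
  have e1 : x - z = b • (x - y) := by
    have ea : a = 1 - b := by linarith
    rw [hzdef, ea, sub_smul, one_smul, smul_sub]; abel
  have e2 : y - z = - (a • (x - y)) := by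
    have eb : b = 1 - a := by linarith
    rw [hzdef, eb, sub_smul, one_smul, smul_sub]; abel
  have hxy' : x - y ≠ 0 := sub_ne_zero.mpr hxy
  have hxz : x ≠ z := by
    rw [← sub_ne_zero, e1]; exact smul_ne_zero hb.ne' hxy'
  have hyz : y ≠ z := by
    rw [← sub_ne_zero, e2]; exact neg_ne_zero.mpr (smul_ne_zero ha.ne' hxy')
  have h1 := tangent_lt hΩ hcv hu hpos hz hx hxz
  have h2 := tangent_lt hΩ hcv hu hpos hz hy hyz
  rw [e1, map_smul] at h1
  rw [e2, map_neg, map_smul] at h2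
  simp only [smul_eq_mul] at h1 h2 ⊢
  have h3 := mul_lt_mul_of_pos_left h1 ha
  have h4 := mul_lt_mul_of_pos_left h2 hb
  have h5 : a * u z + b * u z = u z := by rw [← add_mul, hab, one_mul]
  nlinarith

end basic

section complete

variable {Ω : Set (EuclideanSpace ℝ (Fin n))} {u : EuclideanSpace ℝ (Fin n) → ℝ}

lemma graphLength_nonneg (u : EuclideanSpace ℝ (Fin n) → ℝ) (γ : ℝ → EuclideanSpace ℝ (Fin n)) :
    0 ≤ graphLength u γ :=
  intervalIntegral.integral_nonneg (by norm_num) (fun _ _ => Real.sqrt_nonneg _)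

lemma bddBelow_graphLengths (a b : EuclideanSpace ℝ (Fin n)) :
    BddBelow {L | ∃ γ : ℝ → EuclideanSpace ℝ (Fin n), ContDiff ℝ 1 γ ∧ γ 0 = a ∧
      γ 1 = b ∧ (∀ t ∈ Set.Icc (0 : ℝ) 1, γ t ∈ Ω) ∧ L = graphLength u γ} := by
  refine ⟨0, ?_⟩
  rintro L ⟨γ, -, -, -, -, rfl⟩
  exact graphLength_nonneg u γ

lemma segment_length_mem (hcv : Convex ℝ Ω) {a b : EuclideanSpace ℝ (Fin n)} (ha : a ∈ Ω)
    (hb : b ∈ Ω) : graphLength u (fun t : ℝ => a + t • (b - a)) ∈
    {L | ∃ γ : ℝ → EuclideanSpace ℝ (Fin n), ContDiff ℝ 1 γ ∧ γ 0 = a ∧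
      γ 1 = b ∧ (∀ t ∈ Set.Icc (0 : ℝ) 1, γ t ∈ Ω) ∧ L = graphLength u γ} := by
  refine ⟨fun t : ℝ => a + t • (b - a), by fun_prop, by simp, by simp, ?_, rfl⟩
  exact segment_mem hcv ha hb

lemma graphDist_le_segment (hcv : Convex ℝ Ω) {a b : EuclideanSpace ℝ (Fin n)} (ha : a ∈ Ω)
    (hb : b ∈ Ω) : graphDist Ω u a b ≤ graphLength u (fun t : ℝ => a + t • (b - a)) :=
  csInf_le (bddBelow_graphLengths a b) (segment_length_mem hcv ha hb)

lemma graphLength_reverse (u : EuclideanSpace ℝ (Fin n) → ℝ)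
    (γ : ℝ → EuclideanSpace ℝ (Fin n)) :
    graphLength u (fun t => γ (1 - t)) = graphLength u γ := by
  unfold graphLength
  have h1 : ∀ t : ℝ, deriv (fun t => γ (1 - t)) t = - deriv γ (1 - t) := by
    intro t
    exact deriv_comp_const_sub (f := γ) 1 t
  have h2 : ∀ t : ℝ, Real.sqrt (‖deriv (fun t => γ (1 - t)) t‖ ^ 2 +
      (fderiv ℝ u (γ (1 - t)) (deriv (fun t => γ (1 - t)) t)) ^ 2) =
      (fun s => Real.sqrt (‖deriv γ s‖ ^ 2 + (fderiv ℝ u (γ s) (deriv γ s)) ^ 2)) (1 - t) := by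
    intro t
    simp only [h1, norm_neg, map_neg, neg_sq]
  simp_rw [h2]
  rw [intervalIntegral.integral_comp_sub_left
    (fun s => Real.sqrt (‖deriv γ s‖ ^ 2 + (fderiv ℝ u (γ s) (deriv γ s)) ^ 2)) 1]
  simp

lemma graphDist_symm (Ω : Set (EuclideanSpace ℝ (Fin n))) (u : EuclideanSpace ℝ (Fin n) → ℝ)
    (a b : EuclideanSpace ℝ (Fin n)) : graphDist Ω u a b = graphDist Ω u b a := by
  unfold graphDist
  congr 1
  ext L
  have key : ∀ a b : EuclideanSpace ℝ (Fin n), ∀ L,
      (∃ γ : ℝ → EuclideanSpace ℝ (Fin n), ContDiff ℝ 1 γ ∧ γ 0 = a ∧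
        γ 1 = b ∧ (∀ t ∈ Set.Icc (0 : ℝ) 1, γ t ∈ Ω) ∧ L = graphLength u γ) →
      (∃ γ : ℝ → EuclideanSpace ℝ (Fin n), ContDiff ℝ 1 γ ∧ γ 0 = b ∧
        γ 1 = a ∧ (∀ t ∈ Set.Icc (0 : ℝ) 1, γ t ∈ Ω) ∧ L = graphLength u γ) := by
    rintro a b L ⟨γ, h1, h2, h3, h4, h5⟩
    refine ⟨fun t => γ (1 - t), h1.comp (by fun_prop), by simpa using h3, by simpa using h2,
      ?_, ?_⟩
    · intro t ht
      exact h4 _ ⟨by linarith [ht.2], by linarith [ht.1]⟩
    · rw [graphLength_reverse, h5]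
  exact ⟨key a b L, key b a L⟩

lemma dist_le_graphDist (hΩ : IsOpen Ω) (hcv : Convex ℝ Ω) (hu : ContDiffOn ℝ ∞ u Ω)
    {a b : EuclideanSpace ℝ (Fin n)} (ha : a ∈ Ω) (hb : b ∈ Ω) :
    dist a b ≤ graphDist Ω u a b := by
  apply le_csInf ⟨_, segment_length_mem (u := u) hcv ha hb⟩
  rintro L ⟨γ, h1, h2, h3, h4, rfl⟩
  have := dist_le_graphLength_on hΩ hu γ h1 h4
  rwa [h2, h3] at this

/-- Length of the graph over a segment on which the derivative of `u` along a line is monotone. -/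
lemma graphLength_segment_le_var (hΩ : IsOpen Ω) (hu : ContDiffOn ℝ ∞ u Ω)
    (p v : EuclideanSpace ℝ (Fin n)) {s t : ℝ} (hst : s ≤ t) (C : ℝ)
    (hin : ∀ r ∈ Set.Icc s t, p + r • v ∈ Ω)
    (hC : ∀ r ∈ Set.Icc s t, C ≤ fderiv ℝ u (p + r • v) v) :
    graphLength u (fun r : ℝ => (p + s • v) + r • ((p + t • v) - (p + s • v))) ≤
      (‖v‖ + |C| - C) * (t - s) + (u (p + t • v) - u (p + s • v)) := by
  have he : ∀ r : ℝ, (p + s • v) + r • ((p + t • v) - (p + s • v)) =
      p + (s + r * (t - s)) • v := by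
    intro r
    rw [add_sub_add_left_eq_sub, ← sub_smul, smul_smul, add_assoc, ← add_smul]
  have hmem : ∀ r ∈ Set.Icc (0 : ℝ) 1, s + r * (t - s) ∈ Set.Icc s t := by
    intro r hr
    have h1 : 0 ≤ r * (t - s) := mul_nonneg hr.1 (sub_nonneg.mpr hst)
    have h2 : r * (t - s) ≤ 1 * (t - s) := mul_le_mul_of_nonneg_right hr.2 (sub_nonneg.mpr hst)
    constructor <;> linarith
  have hfun : (fun r : ℝ => (p + s • v) + r • ((p + t • v) - (p + s • v))) =
      fun r : ℝ => p + (s + r * (t - s)) • v := funext he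
  rw [hfun]
  set γ : ℝ → EuclideanSpace ℝ (Fin n) := fun r : ℝ => p + (s + r * (t - s)) • v with hγdef
  have hγ1 : ContDiff ℝ 1 γ := by rw [hγdef]; fun_prop
  have hγd : ∀ r, HasDerivAt γ ((t - s) • v) r := by
    intro r
    have h1 : HasDerivAt (fun r : ℝ => s + r * (t - s)) (t - s) r := by
      simpa using ((hasDerivAt_id r).mul_const (t - s)).const_add s
    exact (h1.smul_const v).const_add p
  have hγin : ∀ r ∈ Set.Icc (0 : ℝ) 1, γ r ∈ Ω := fun r hr => hin _ (hmem r hr)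
  have hd : ∀ r ∈ Set.uIcc (0 : ℝ) 1, HasDerivAt (fun r => u (γ r))
      (fderiv ℝ u (γ r) ((t - s) • v)) r := by
    intro r hr
    rw [Set.uIcc_of_le (by norm_num)] at hr
    have h2 : HasFDerivAt u (fderiv ℝ u (γ r)) (γ r) :=
      ((hu.contDiffAt (hΩ.mem_nhds (hγin r hr))).differentiableAt (by simp)).hasFDerivAt
    exact h2.comp_hasDerivAt r (hγd r)
  have hcd := continuousOn_fderiv_curve hΩ hu γ hγ1 hγin
  have hderiv : ∀ r, deriv γ r = (t - s) • v := fun r => (hγd r).deriv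
  have hcd' : ContinuousOn (fun r => fderiv ℝ u (γ r) ((t - s) • v)) (Set.Icc 0 1) := by
    simpa only [hderiv] using hcd
  have hint := hcd'.intervalIntegrable_of_Icc (μ := MeasureTheory.volume)
    (by norm_num : (0:ℝ) ≤ 1)
  have h5 := intervalIntegral.integral_eq_sub_of_hasDerivAt hd hint
  have hts : 0 ≤ t - s := sub_nonneg.mpr hst
  have h6 : graphLength u γ ≤ ∫ r in (0 : ℝ)..1, ((‖v‖ + |C| - C) * (t - s) +
      fderiv ℝ u (γ r) ((t - s) • v)) := by
    unfold graphLength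
    apply intervalIntegral.integral_mono_on (by norm_num)
      ((continuousOn_speed hΩ hu γ hγ1 hγin).intervalIntegrable_of_Icc (by norm_num))
      (intervalIntegrable_const.add hint)
    intro r hr
    rw [hderiv r]
    have h7 := hC _ (hmem r hr)
    change C ≤ fderiv ℝ u (γ r) v at h7
    rw [map_smul, norm_smul, Real.norm_eq_abs, abs_of_nonneg hts, smul_eq_mul]
    set D := fderiv ℝ u (γ r) v with hD
    have h8 : |D| ≤ D + |C| - C := by
      rcases le_or_gt 0 D with h | h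
      · rw [abs_of_nonneg h]; have := le_abs_self C; linarith
      · rw [abs_of_neg h]
        have h9 : |C| = -C := abs_of_neg (lt_of_le_of_lt h7 h)
        rw [h9]; linarith
    have h10 : Real.sqrt (((t - s) * ‖v‖) ^ 2 + ((t - s) * D) ^ 2) ≤
        (t - s) * ‖v‖ + (t - s) * |D| := by
      apply Real.sqrt_le_iff.mpr
      constructor
      · positivity
      · have : 0 ≤ ((t - s) * ‖v‖) * ((t - s) * |D|) := by positivity
        have h11 : ((t - s) * |D|) ^ 2 = ((t - s) * D) ^ 2 := by rw [mul_pow, mul_pow, sq_abs]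
        nlinarith
    refine h10.trans ?_
    have := mul_le_mul_of_nonneg_left h8 hts
    nlinarith
  refine h6.trans ?_
  rw [intervalIntegral.integral_add intervalIntegrable_const hint, h5]
  simp [hγdef]

/-- Euclidean completeness: the sublevel sets of `u` are closed in `ℝⁿ`, i.e. `u → ∞` at every
boundary point of `Ω`. -/
theorem isClosed_sublevel (hΩ : IsOpen Ω) (hcv : Convex ℝ Ω) (hu : ContDiffOn ℝ ∞ u Ω)
    (hpos : ∀ x ∈ Ω, (hess u x).PosDef) (hc : EuclideanComplete Ω u) (M : ℝ) :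
    IsClosed {x | x ∈ Ω ∧ u x ≤ M} := by
  rw [← isSeqClosed_iff_isClosed]
  intro x y hx hxy
  have hconv := (strictConvexOn_of_hess hΩ hcv hu hpos).convexOn
  suffices hy : y ∈ Ω by
    refine ⟨hy, ?_⟩
    have h1 : Tendsto (fun k => u (x k)) atTop (𝓝 (u y)) :=
      ((hu.continuousOn.continuousAt (hΩ.mem_nhds hy)).tendsto).comp hxy
    exact le_of_tendsto' h1 (fun k => (hx k).2)
  set p := x 0 with hp
  have hpΩ : p ∈ Ω := (hx 0).1
  have hycl : y ∈ closure Ω := mem_closure_of_tendsto hxy (Eventually.of_forall fun k => (hx k).1)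
  set v := y - p with hv
  have hin : ∀ t : ℝ, 0 ≤ t → t < 1 → p + t • v ∈ Ω := by
    intro t h0 h1
    have h2 := hcv.add_smul_sub_mem_interior' (x := y) (y := p) hycl
      (by rwa [hΩ.interior_eq]) (t := 1 - t) ⟨by linarith, by linarith⟩
    rw [hΩ.interior_eq] at h2
    convert h2 using 1
    rw [hv, sub_smul, one_smul, smul_sub, smul_sub]; abel
  -- upper bound along the segment
  have hub : ∀ t : ℝ, 0 ≤ t → t < 1 → u (p + t • v) ≤ (1 - t) * u p + t * M := by
    intro t h0 h1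
    have h2 : Tendsto (fun k => p + t • (x k - p)) atTop (𝓝 (p + t • v)) :=
      tendsto_const_nhds.add ((hxy.sub_const p).const_smul t)
    have h3 : Tendsto (fun k => u (p + t • (x k - p))) atTop (𝓝 (u (p + t • v))) :=
      ((hu.continuousOn.continuousAt (hΩ.mem_nhds (hin t h0 h1))).tendsto).comp h2
    refine le_of_tendsto' h3 (fun k => ?_)
    have h4 := hconv.2 hpΩ (hx k).1 (sub_nonneg.mpr h1.le) h0 (by ring)
    have h5 : (1 - t) • p + t • x k = p + t • (x k - p) := by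
      rw [sub_smul, one_smul, smul_sub]; abel
    rw [h5] at h4
    simp only [smul_eq_mul] at h4
    have := mul_le_mul_of_nonneg_left (hx k).2 h0
    linarith
  set C := fderiv ℝ u p v with hC
  have hCle : ∀ t : ℝ, 0 ≤ t → t < 1 → C ≤ fderiv ℝ u (p + t • v) v := by
    intro t h0 h1
    rcases h0.eq_or_lt with h | h
    · rw [← h]; simp [hC]
    · by_cases hv0 : v = 0
      · rw [hC, hv0]; simp
      have hne : p + t • v ≠ p := by
        intro h2
        have h3 : t • v = 0 := by simpa using h2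
        exact (smul_ne_zero h.ne' hv0) h3
      have h2 := fderiv_strictMono hΩ hcv hu hpos hpΩ (hin t h0 h1) hne
      rw [add_sub_cancel_left, map_smul, smul_eq_mul] at h2
      have h3 : 0 < (fderiv ℝ u (p + t • v) - fderiv ℝ u p) v := by
        exact (pos_iff_pos_of_mul_pos h2).mp h
      simp only [sub_apply] at h3
      linarith
  -- the sequence
  set s : ℕ → ℝ := fun k => 1 - 1 / ((k : ℝ) + 1) with hs
  have hs0 : ∀ k, 0 ≤ s k := by
    intro k
    have : 1 / ((k : ℝ) + 1) ≤ 1 := by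
      rw [div_le_one (by positivity)]; linarith [(Nat.cast_nonneg k : (0:ℝ) ≤ k)]
    simp only [hs]; linarith
  have hs1 : ∀ k, s k < 1 := by
    intro k
    have : 0 < 1 / ((k : ℝ) + 1) := by positivity
    simp only [hs]; linarith
  have hsm : Monotone s := by
    intro i j hij
    have h1 : (i : ℝ) + 1 ≤ (j : ℝ) + 1 := by exact_mod_cast Nat.succ_le_succ hij
    have h2 : 1 / ((j : ℝ) + 1) ≤ 1 / ((i : ℝ) + 1) :=
      one_div_le_one_div_of_le (by positivity) h1
    simp only [hs]; linarith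
  have hslim : Tendsto s atTop (𝓝 1) := by
    have := (tendsto_one_div_add_atTop_nhds_zero_nat (𝕜 := ℝ)).const_sub 1
    rwa [sub_zero] at this
  set F : ℝ → ℝ := fun t => (‖v‖ + |C| - C) * t + u (p + t • v) with hF
  have hlen : ∀ i j, i ≤ j → graphDist Ω u (p + s i • v) (p + s j • v) ≤
      F (s j) - F (s i) := by
    intro i j hij
    have h1 := graphDist_le_segment (u := u) hcv (hin (s i) (hs0 i) (hs1 i))
      (hin (s j) (hs0 j) (hs1 j))
    have h2 := graphLength_segment_le_var hΩ hu p v (hsm hij) C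
      (fun r hr => hin r ((hs0 i).trans hr.1) (hr.2.trans_lt (hs1 j)))
      (fun r hr => hCle r ((hs0 i).trans hr.1) (hr.2.trans_lt (hs1 j)))
    refine (h1.trans h2).trans (le_of_eq ?_)
    simp only [hF]; ring
  have hsymm : ∀ i j, j ≤ i → graphDist Ω u (p + s i • v) (p + s j • v) ≤
      F (s i) - F (s j) := by
    intro i j hij
    rw [graphDist_symm]
    exact hlen j i hij
  have hFmono : Monotone (fun k => F (s k)) := by
    intro i j hij
    have h1 := hlen i j hij
    have h2 : 0 ≤ graphDist Ω u (p + s i • v) (p + s j • v) :=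
      dist_nonneg.trans (dist_le_graphDist hΩ hcv hu (hin (s i) (hs0 i) (hs1 i))
        (hin (s j) (hs0 j) (hs1 j)))
    simp only
    linarith
  have hbdd : BddAbove (Set.range fun k => F (s k)) := by
    refine ⟨(‖v‖ + |C| - C) + (|u p| + |M|), ?_⟩
    rintro _ ⟨k, rfl⟩
    simp only [hF]
    have h1 := hub (s k) (hs0 k) (hs1 k)
    have h2 : 0 ≤ ‖v‖ + |C| - C := by
      have := le_abs_self C
      have := norm_nonneg v
      linarith
    have h3 : (‖v‖ + |C| - C) * s k ≤ (‖v‖ + |C| - C) * 1 :=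
      mul_le_mul_of_nonneg_left (hs1 k).le h2
    have h4 : (1 - s k) * u p ≤ |u p| := by
      have h41 : (1 - s k) * u p ≤ (1 - s k) * |u p| :=
        mul_le_mul_of_nonneg_left (le_abs_self _) (by linarith [hs1 k])
      have h42 : (1 - s k) * |u p| ≤ 1 * |u p| :=
        mul_le_mul_of_nonneg_right (by linarith [hs0 k]) (abs_nonneg _)
      linarith
    have h5 : s k * M ≤ |M| := by
      have h51 : s k * M ≤ s k * |M| := mul_le_mul_of_nonneg_left (le_abs_self _) (hs0 k)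
      have h52 : s k * |M| ≤ 1 * |M| := mul_le_mul_of_nonneg_right (hs1 k).le (abs_nonneg _)
      linarith
    linarith
  have hcauchy : CauchySeq (fun k => F (s k)) :=
    (tendsto_atTop_ciSup hFmono hbdd).cauchySeq
  obtain ⟨y', hy'Ω, hy'⟩ := hc (fun k => p + s k • v) (fun k => hin (s k) (hs0 k) (hs1 k)) (by
    intro ε hε
    obtain ⟨N, hN⟩ := Metric.cauchySeq_iff.mp hcauchy ε hε
    refine ⟨N, fun i hi j hj => ?_⟩
    have h1 := hN i hi j hj
    rw [Real.dist_eq] at h1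
    rcases le_total i j with h | h
    · refine (hlen i j h).trans_lt ?_
      rw [abs_sub_comm] at h1
      exact (le_abs_self _).trans_lt h1
    · refine (hsymm i j h).trans_lt ?_
      exact (le_abs_self _).trans_lt h1)
  have h1 : Tendsto (fun k => dist (p + s k • v) y') atTop (𝓝 0) :=
    squeeze_zero (fun _ => dist_nonneg)
      (fun k => dist_le_graphDist hΩ hcv hu (hin (s k) (hs0 k) (hs1 k)) hy'Ω) hy'
  have h2 : Tendsto (fun k => p + s k • v) atTop (𝓝 y') := tendsto_iff_dist_tendsto_zero.mpr h1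
  have h3 : Tendsto (fun k => p + s k • v) atTop (𝓝 (p + (1 : ℝ) • v)) :=
    tendsto_const_nhds.add (hslim.smul_const v)
  have h4 : p + (1 : ℝ) • v = y := by rw [one_smul, hv]; abel
  rw [h4] at h3
  rw [← tendsto_nhds_unique h2 h3]
  exact hy'Ω

end complete

end Vale.Agent.P252
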