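import Vale.Agent.P252.H747.Sections

/-! Sections of Euclidean complete locally uniformly convex graphs. -/

open scoped ContDiff Topology
open Filter

namespace Vale.Agent.P252

variable {n : ℕ}

/-- `u - (tangent plane at p)`. -/
noncomputable def tilt (u : EuclideanSpace ℝ (Fin n) → ℝ) (p x : EuclideanSpace ℝ (Fin n)) : ℝ :=
  u x - u p - fderiv ℝ u p (x - p)

/-- The open section of height `h` at `p`. -/
def Sect (Ω : Set (EuclideanSpace ℝ (Fin n))) (u : EuclideanSpace ℝ (Fin n) → ℝ)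
    (p : EuclideanSpace ℝ (Fin n)) (h : ℝ) : Set (EuclideanSpace ℝ (Fin n)) :=
  {x | x ∈ Ω ∧ tilt u p x < h}

/-- The closed section of height `h` at `p`. -/
def CSect (Ω : Set (EuclideanSpace ℝ (Fin n))) (u : EuclideanSpace ℝ (Fin n) → ℝ)
    (p : EuclideanSpace ℝ (Fin n)) (h : ℝ) : Set (EuclideanSpace ℝ (Fin n)) :=
  {x | x ∈ Ω ∧ tilt u p x ≤ h}

section

variable {Ω : Set (EuclideanSpace ℝ (Fin n))} {u : EuclideanSpace ℝ (Fin n) → ℝ}

@[simp] lemma tilt_self (u : EuclideanSpace ℝ (Fin n) → ℝ) (p : EuclideanSpace ℝ (Fin n)) :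
    tilt u p p = 0 := by simp [tilt]

lemma continuousOn_tilt (hu : ContDiffOn ℝ ∞ u Ω) (p : EuclideanSpace ℝ (Fin n)) :
    ContinuousOn (tilt u p) Ω := by
  unfold tilt
  exact (hu.continuousOn.sub continuousOn_const).sub (by fun_prop)

lemma contDiffOn_tilt (hu : ContDiffOn ℝ ∞ u Ω) (p : EuclideanSpace ℝ (Fin n)) :
    ContDiffOn ℝ ∞ (tilt u p) Ω := by
  unfold tilt
  exact (hu.sub contDiffOn_const).sub (by fun_prop)

/-- The epigraph of a Euclidean complete graph is closed. -/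
theorem isClosed_epigraph (hΩ : IsOpen Ω) (hcv : Convex ℝ Ω) (hu : ContDiffOn ℝ ∞ u Ω)
    (hpos : ∀ x ∈ Ω, (hess u x).PosDef) (hc : EuclideanComplete Ω u) :
    IsClosed {q : EuclideanSpace ℝ (Fin n) × ℝ | q.1 ∈ Ω ∧ u q.1 ≤ q.2} := by
  rw [← isSeqClosed_iff_isClosed]
  intro x y hx hxy
  have h1 : Tendsto (fun k => (x k).1) atTop (𝓝 y.1) := (continuous_fst.tendsto y).comp hxy
  have h2 : Tendsto (fun k => (x k).2) atTop (𝓝 y.2) := (continuous_snd.tendsto y).comp hxy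
  obtain ⟨M, hM⟩ := h2.bddAbove_range
  have hy : y.1 ∈ Ω ∧ u y.1 ≤ M :=
    (isClosed_sublevel hΩ hcv hu hpos hc M).mem_of_tendsto h1
      (Eventually.of_forall fun k => ⟨(hx k).1, (hx k).2.trans (hM ⟨k, rfl⟩)⟩)
  refine ⟨hy.1, ?_⟩
  have h3 : Tendsto (fun k => u (x k).1) atTop (𝓝 (u y.1)) :=
    ((hu.continuousOn.continuousAt (hΩ.mem_nhds hy.1)).tendsto).comp h1
  exact le_of_tendsto_of_tendsto' h3 h2 (fun k => (hx k).2)

/-- For every continuous function `l`, the set `{u ≤ l}` is closed in `ℝⁿ`. -/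
theorem isClosed_le_cont (hΩ : IsOpen Ω) (hcv : Convex ℝ Ω) (hu : ContDiffOn ℝ ∞ u Ω)
    (hpos : ∀ x ∈ Ω, (hess u x).PosDef) (hc : EuclideanComplete Ω u)
    {l : EuclideanSpace ℝ (Fin n) → ℝ} (hl : Continuous l) :
    IsClosed {x | x ∈ Ω ∧ u x ≤ l x} := by
  have h := isClosed_epigraph hΩ hcv hu hpos hc
  exact h.preimage (continuous_id.prodMk hl)

theorem isClosed_CSect (hΩ : IsOpen Ω) (hcv : Convex ℝ Ω) (hu : ContDiffOn ℝ ∞ u Ω)
    (hpos : ∀ x ∈ Ω, (hess u x).PosDef) (hc : EuclideanComplete Ω u)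
    (p : EuclideanSpace ℝ (Fin n)) (h : ℝ) : IsClosed (CSect Ω u p h) := by
  have h1 := isClosed_le_cont hΩ hcv hu hpos hc
    (l := fun x => u p + fderiv ℝ u p (x - p) + h) (by fun_prop)
  convert h1 using 1
  ext x
  simp only [CSect, tilt, Set.mem_ofPred_eq]
  constructor
  · rintro ⟨a, b⟩; exact ⟨a, by linarith⟩
  · rintro ⟨a, b⟩; exact ⟨a, by linarith⟩

lemma tilt_nonneg (hΩ : IsOpen Ω) (hcv : Convex ℝ Ω) (hu : ContDiffOn ℝ ∞ u Ω)
    (hpos : ∀ x ∈ Ω, (hess u x).PosDef) {p x : EuclideanSpace ℝ (Fin n)} (hp : p ∈ Ω)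
    (hx : x ∈ Ω) : 0 ≤ tilt u p x := by
  have := tangent_le hΩ hcv hu hpos hp hx
  unfold tilt; linarith

lemma tilt_pos (hΩ : IsOpen Ω) (hcv : Convex ℝ Ω) (hu : ContDiffOn ℝ ∞ u Ω)
    (hpos : ∀ x ∈ Ω, (hess u x).PosDef) {p x : EuclideanSpace ℝ (Fin n)} (hp : p ∈ Ω)
    (hx : x ∈ Ω) (hne : x ≠ p) : 0 < tilt u p x := by
  have := tangent_lt hΩ hcv hu hpos hp hx hne
  unfold tilt; linarith

lemma strictConvexOn_tilt (hΩ : IsOpen Ω) (hcv : Convex ℝ Ω) (hu : ContDiffOn ℝ ∞ u Ω)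
    (hpos : ∀ x ∈ Ω, (hess u x).PosDef) (p : EuclideanSpace ℝ (Fin n)) :
    StrictConvexOn ℝ Ω (tilt u p) := by
  refine ⟨hcv, ?_⟩
  intro x hx y hy hxy a b ha hb hab
  have h1 := (strictConvexOn_of_hess hΩ hcv hu hpos).2 hx hy hxy ha hb hab
  have h2 : fderiv ℝ u p (a • x + b • y - p) = a * fderiv ℝ u p (x - p) +
      b * fderiv ℝ u p (y - p) := by
    have : a • x + b • y - p = a • (x - p) + b • (y - p) := by
      have e : p = a • p + b • p := by rw [← add_smul, hab, one_smul]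
      rw [smul_sub, smul_sub]
      nth_rewrite 1 [e]
      abel
    rw [this, map_add, map_smul, map_smul]; simp
  simp only [tilt, smul_eq_mul, h2] at h1 ⊢
  have h3 : u p = a * u p + b * u p := by rw [← add_mul, hab, one_mul]
  linarith

/-- Linear growth of `tilt u p` away from `p`. -/
theorem tilt_growth (hΩ : IsOpen Ω) (hcv : Convex ℝ Ω) (hu : ContDiffOn ℝ ∞ u Ω)
    (hpos : ∀ x ∈ Ω, (hess u x).PosDef) {p : EuclideanSpace ℝ (Fin n)} (hp : p ∈ Ω) :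
    ∃ r > 0, ∃ m > 0, Metric.closedBall p r ⊆ Ω ∧
      ∀ x ∈ Ω, r ≤ dist x p → m * dist x p ≤ tilt u p x := by
  obtain ⟨r, hr, hball⟩ := Metric.nhds_basis_closedBall.mem_iff.mp (hΩ.mem_nhds hp)
  obtain ⟨m₀, hm₀, hm⟩ : ∃ m₀ > 0, ∀ x ∈ Metric.sphere p r, m₀ ≤ tilt u p x := by
    by_cases hne : (Metric.sphere p r).Nonempty
    · obtain ⟨z, hz, hzmin⟩ := (isCompact_sphere p r).exists_isMinOn hne
        ((continuousOn_tilt hu p).mono (Metric.sphere_subset_closedBall.trans hball))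
      refine ⟨tilt u p z, tilt_pos hΩ hcv hu hpos hp
        (hball (Metric.sphere_subset_closedBall hz)) ?_, fun x hx => hzmin hx⟩
      intro h
      rw [h, Metric.mem_sphere, dist_self] at hz
      exact hr.ne hz
    · exact ⟨1, one_pos, fun x hx => (hne ⟨x, hx⟩).elim⟩
  refine ⟨r, hr, m₀ / r, div_pos hm₀ hr, hball, ?_⟩
  intro x hx hxr
  have hd : 0 < dist x p := hr.trans_le hxr
  set t := r / dist x p with ht
  have ht0 : 0 < t := div_pos hr hd
  have ht1 : t ≤ 1 := (div_le_one hd).mpr hxr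
  set z := (1 - t) • p + t • x with hz
  have hzs : z ∈ Metric.sphere p r := by
    rw [Metric.mem_sphere, dist_eq_norm]
    have : z - p = t • (x - p) := by
      rw [hz, sub_smul, one_smul, smul_sub]; abel
    rw [this, norm_smul, Real.norm_eq_abs, abs_of_pos ht0, ← dist_eq_norm, ht,
      div_mul_cancel₀ _ hd.ne']
  have h1 := (strictConvexOn_tilt hΩ hcv hu hpos p).convexOn.2 hp hx
    (sub_nonneg.mpr ht1) ht0.le (by ring)
  rw [← hz] at h1
  simp only [tilt_self, smul_eq_mul, mul_zero, zero_add] at h1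
  have h2 := (hm z hzs).trans h1
  have h3 : m₀ / r * dist x p = m₀ / t := by
    rw [ht]; field_simp
  rw [h3, div_le_iff₀ ht0]
  linarith

/-- The closed sections of a Euclidean complete graph are compact. -/
theorem isCompact_CSect (hΩ : IsOpen Ω) (hcv : Convex ℝ Ω) (hu : ContDiffOn ℝ ∞ u Ω)
    (hpos : ∀ x ∈ Ω, (hess u x).PosDef) (hc : EuclideanComplete Ω u)
    {p : EuclideanSpace ℝ (Fin n)} (hp : p ∈ Ω) (h : ℝ) : IsCompact (CSect Ω u p h) := by
  obtain ⟨r, hr, m, hm, -, hgrow⟩ := tilt_growth hΩ hcv hu hpos hp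
  apply Metric.isCompact_of_isClosed_isBounded (isClosed_CSect hΩ hcv hu hpos hc p h)
  apply Metric.isBounded_closedBall (x := p) (r := max r (h / m)) |>.subset
  rintro x ⟨hx, hxh⟩
  rw [Metric.mem_closedBall]
  rcases le_or_gt (dist x p) r with h1 | h1
  · exact h1.trans (le_max_left _ _)
  · refine le_trans ?_ (le_max_right _ _)
    rw [le_div_iff₀ hm]
    have := hgrow x hx h1.le
    linarith

lemma Sect_subset_CSect (p : EuclideanSpace ℝ (Fin n)) (h : ℝ) :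
    Sect Ω u p h ⊆ CSect Ω u p h := fun _ hx => ⟨hx.1, hx.2.le⟩

lemma CSect_subset (p : EuclideanSpace ℝ (Fin n)) (h : ℝ) : CSect Ω u p h ⊆ Ω :=
  fun _ hx => hx.1

lemma isOpen_Sect (hΩ : IsOpen Ω) (hu : ContDiffOn ℝ ∞ u Ω) (p : EuclideanSpace ℝ (Fin n))
    (h : ℝ) : IsOpen (Sect Ω u p h) :=
  (continuousOn_tilt hu p).isOpen_inter_preimage hΩ isOpen_Iio

lemma convex_Sect (hΩ : IsOpen Ω) (hcv : Convex ℝ Ω) (hu : ContDiffOn ℝ ∞ u Ω)
    (hpos : ∀ x ∈ Ω, (hess u x).PosDef) (p : EuclideanSpace ℝ (Fin n)) (h : ℝ) :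
    Convex ℝ (Sect Ω u p h) :=
  (strictConvexOn_tilt hΩ hcv hu hpos p).convexOn.convex_lt h

lemma convex_CSect (hΩ : IsOpen Ω) (hcv : Convex ℝ Ω) (hu : ContDiffOn ℝ ∞ u Ω)
    (hpos : ∀ x ∈ Ω, (hess u x).PosDef) (p : EuclideanSpace ℝ (Fin n)) (h : ℝ) :
    Convex ℝ (CSect Ω u p h) :=
  (strictConvexOn_tilt hΩ hcv hu hpos p).convexOn.convex_le h

lemma mem_Sect_self {p : EuclideanSpace ℝ (Fin n)} (hp : p ∈ Ω) {h : ℝ} (hh : 0 < h) :
    p ∈ Sect Ω u p h := ⟨hp, by simpa using hh⟩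

lemma isBounded_Sect (hΩ : IsOpen Ω) (hcv : Convex ℝ Ω) (hu : ContDiffOn ℝ ∞ u Ω)
    (hpos : ∀ x ∈ Ω, (hess u x).PosDef) (hc : EuclideanComplete Ω u)
    {p : EuclideanSpace ℝ (Fin n)} (hp : p ∈ Ω) (h : ℝ) : Bornology.IsBounded (Sect Ω u p h) :=
  (isCompact_CSect hΩ hcv hu hpos hc hp h).isBounded.subset (Sect_subset_CSect p h)

/-- The closure of the open section is the closed section. -/
theorem closure_Sect (hΩ : IsOpen Ω) (hcv : Convex ℝ Ω) (hu : ContDiffOn ℝ ∞ u Ω)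
    (hpos : ∀ x ∈ Ω, (hess u x).PosDef) (hc : EuclideanComplete Ω u)
    {p : EuclideanSpace ℝ (Fin n)} (hp : p ∈ Ω) {h : ℝ} (hh : 0 < h) :
    closure (Sect Ω u p h) = CSect Ω u p h := by
  apply Set.Subset.antisymm
  · exact closure_minimal (Sect_subset_CSect p h) (isClosed_CSect hΩ hcv hu hpos hc p h)
  · intro x hx
    -- the points `p + t (x - p)` for `t < 1`
    have h1 : Tendsto (fun t : ℝ => (1 - t) • p + t • x) (𝓝[<] 1) (𝓝 x) := by
      have : Continuous (fun t : ℝ => (1 - t) • p + t • x) := by fun_prop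
      have h2 := (this.tendsto 1).mono_left (nhdsWithin_le_nhds (s := Set.Iio (1:ℝ)))
      simpa using h2
    apply mem_closure_of_tendsto h1
    have h3 : ∀ᶠ t : ℝ in 𝓝[<] 1, 0 < t ∧ t < 1 :=
      Ioo_mem_nhdsLT (zero_lt_one)
    filter_upwards [h3] with t ht
    refine ⟨hcv hp hx.1 (by linarith [ht.2]) ht.1.le (by ring), ?_⟩
    have h4 := (strictConvexOn_tilt hΩ hcv hu hpos p).convexOn.2 hp hx.1
      (by linarith [ht.2] : 0 ≤ 1 - t) ht.1.le (by ring)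
    simp only [tilt_self, smul_eq_mul, mul_zero, zero_add] at h4
    have h5 : t * tilt u p x ≤ t * h := mul_le_mul_of_nonneg_left hx.2 ht.1.le
    have h6 : t * h < 1 * h := mul_lt_mul_of_pos_right ht.2 hh
    linarith

/-- On the frontier of the section `tilt u p = h`. -/
theorem frontier_Sect_subset (hΩ : IsOpen Ω) (hcv : Convex ℝ Ω) (hu : ContDiffOn ℝ ∞ u Ω)
    (hpos : ∀ x ∈ Ω, (hess u x).PosDef) (hc : EuclideanComplete Ω u)
    (p : EuclideanSpace ℝ (Fin n)) (h : ℝ) :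
    frontier (Sect Ω u p h) ⊆ {x | x ∈ Ω ∧ tilt u p x = h} := by
  intro x hx
  rw [frontier, (isOpen_Sect hΩ hu p h).interior_eq] at hx
  have h1 : x ∈ CSect Ω u p h :=
    closure_minimal (Sect_subset_CSect p h) (isClosed_CSect hΩ hcv hu hpos hc p h) hx.1
  refine ⟨h1.1, le_antisymm h1.2 ?_⟩
  by_contra hlt
  exact hx.2 ⟨h1.1, not_le.mp hlt⟩

theorem iUnion_Sect (p : EuclideanSpace ℝ (Fin n)) : ⋃ k : ℕ, Sect Ω u p (k : ℝ) = Ω := by
  ext x
  simp only [Set.mem_iUnion]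
  constructor
  · rintro ⟨k, hk⟩; exact hk.1
  · intro hx
    obtain ⟨k, hk⟩ := exists_nat_gt (tilt u p x)
    exact ⟨k, hx, hk⟩

lemma Sect_mono (p : EuclideanSpace ℝ (Fin n)) {h h' : ℝ} (hh : h ≤ h') :
    Sect Ω u p h ⊆ Sect Ω u p h' := fun _ hx => ⟨hx.1, hx.2.trans_le hh⟩

/-- `S_{Mh}(p) - p ⊆ M (S_h(p) - p)` for `M ≥ 1`. -/
theorem mem_Sect_of_scale (hΩ : IsOpen Ω) (hcv : Convex ℝ Ω) (hu : ContDiffOn ℝ ∞ u Ω)
    (hpos : ∀ x ∈ Ω, (hess u x).PosDef) {p : EuclideanSpace ℝ (Fin n)} (hp : p ∈ Ω)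
    {t h : ℝ} (ht0 : 0 < t) (ht1 : t ≤ 1) {x : EuclideanSpace ℝ (Fin n)}
    (hx : x ∈ Sect Ω u p h) : p + t • (x - p) ∈ Sect Ω u p (t * h) := by
  have e : (1 - t) • p + t • x = p + t • (x - p) := by
    rw [sub_smul, one_smul, smul_sub]; abel
  rw [← e]
  refine ⟨hcv hp hx.1 (sub_nonneg.mpr ht1) ht0.le (by ring), ?_⟩
  have h4 := (strictConvexOn_tilt hΩ hcv hu hpos p).convexOn.2 hp hx.1
      (sub_nonneg.mpr ht1) ht0.le (by ring)
  simp only [tilt_self, smul_eq_mul, mul_zero, zero_add] at h4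
  exact h4.trans_lt (mul_lt_mul_of_pos_left hx.2 ht0)

/-- If `{u ≤ A + c}` is bounded and contains a point where the inequality is strict, then `A` is
the slope of `u` at a point of it. -/
theorem exists_slope (hΩ : IsOpen Ω) (hcv : Convex ℝ Ω) (hu : ContDiffOn ℝ ∞ u Ω)
    (hpos : ∀ x ∈ Ω, (hess u x).PosDef) (hc : EuclideanComplete Ω u)
    (A : EuclideanSpace ℝ (Fin n) →L[ℝ] ℝ) (c : ℝ)
    (hb : Bornology.IsBounded {x | x ∈ Ω ∧ u x ≤ A x + c})
    (hne : {x | x ∈ Ω ∧ u x ≤ A x + c}.Nonempty) :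
    ∃ p ∈ Ω, u p ≤ A p + c ∧ fderiv ℝ u p = A ∧ ∀ x ∈ Ω, u p - A p ≤ u x - A x := by
  have hK : IsCompact {x | x ∈ Ω ∧ u x ≤ A x + c} :=
    Metric.isCompact_of_isClosed_isBounded
      (isClosed_le_cont hΩ hcv hu hpos hc (by fun_prop)) hb
  have hcont : ContinuousOn (fun x => u x - A x) {x | x ∈ Ω ∧ u x ≤ A x + c} :=
    (hu.continuousOn.mono (fun x hx => hx.1)).sub A.continuous.continuousOn
  obtain ⟨p, hp, hmin⟩ := hK.exists_isMinOn hne hcont
  have hglob : ∀ x ∈ Ω, u p - A p ≤ u x - A x := by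
    intro x hx
    by_cases h : u x ≤ A x + c
    · exact hmin ⟨hx, h⟩
    · have := hp.2
      push Not at h
      linarith
  refine ⟨p, hp.1, hp.2, ?_, hglob⟩
  have hloc : IsLocalMin (fun x => u x - A x) p := by
    filter_upwards [hΩ.mem_nhds hp.1] with x hx using hglob x hx
  have h1 := hloc.fderiv_eq_zero
  have hd : DifferentiableAt ℝ u p :=
    (hu.contDiffAt (hΩ.mem_nhds hp.1)).differentiableAt (by simp)
  rw [fderiv_fun_sub hd A.differentiableAt, ContinuousLinearMap.fderiv] at h1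
  exact sub_eq_zero.mp h1

end

end Vale.Agent.P252
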