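import Vale.Agent.P252.R.Spec
import Vale.Agent.P252.R.Sections

/-! Task `cellGeom`: geometry of a wedge approximant. -/

open scoped ContDiff Topology
open Filter MeasureTheory

namespace Vale.Agent.P252.H747

open Vale.Agent.P252.R

variable {n k : ℕ}

lemma close_mono {V : Type*} [SeminormedAddCommGroup V] {R R' ε ε' : ℝ} {K K' : Set V}
    (h : Close R ε K K') (hR : R' ≤ R) (hε : ε ≤ ε') : Close R' ε' K K' := by
  refine ⟨fun p hp hpR => ?_, fun p hp hpR => ?_⟩
  · obtain ⟨q, hq, hpq⟩ := h.1 p hp (hpR.trans hR)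
    exact ⟨q, hq, hpq.trans hε⟩
  · obtain ⟨q, hq, hpq⟩ := h.2 p hp (hpR.trans hR)
    exact ⟨q, hq, hpq.trans hε⟩

/-- The orthant consists of recession directions of a wedge. -/
lemma wedge_add_mem {K : Set (En n × ℝ)} (hK : Wedge n k K) {p q : En n × ℝ} (hp : p ∈ K)
    (h2 : 0 ≤ q.2) (h1 : ∀ i : Fin n, i.val < k → 0 ≤ q.1 i)
    (h0 : ∀ i : Fin n, k ≤ i.val → q.1 i = 0) : p + q ∈ K := by
  have hseq : ∀ m : ℕ, (1 - 1 / ((m : ℝ) + 1)) • p + (1 / ((m : ℝ) + 1)) •
      (((m : ℝ) + 1) • q) ∈ K := by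
    intro m
    have hm : (0 : ℝ) < (m : ℝ) + 1 := by positivity
    have hm1 : 1 / ((m : ℝ) + 1) ≤ 1 := by
      rw [div_le_one hm]; linarith [(Nat.cast_nonneg m : (0:ℝ) ≤ m)]
    have hq : ((m : ℝ) + 1) • q ∈ K := by
      apply hK.orth
      · simp only [Prod.smul_snd, smul_eq_mul]; positivity
      · intro i hi
        simp only [Prod.smul_fst, PiLp.smul_apply, smul_eq_mul]
        exact mul_nonneg hm.le (h1 i hi)
      · intro i hi
        simp only [Prod.smul_fst, PiLp.smul_apply, smul_eq_mul, h0 i hi, mul_zero]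
    exact hK.cvx hp hq (by linarith) (by positivity) (by ring)
  have hlim : Tendsto (fun m : ℕ => (1 - 1 / ((m : ℝ) + 1)) • p + (1 / ((m : ℝ) + 1)) •
      (((m : ℝ) + 1) • q)) atTop (𝓝 ((1 - (0:ℝ)) • p + q)) := by
    have h3 := tendsto_one_div_add_atTop_nhds_zero_nat (𝕜 := ℝ)
    apply Tendsto.add
    · exact (h3.const_sub 1).smul_const p
    · apply tendsto_const_nhds.congr
      intro m
      have hm : ((m : ℝ) + 1) ≠ 0 := by positivity
      rw [smul_smul, one_div, inv_mul_cancel₀ hm, one_smul]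
  rw [sub_zero, one_smul] at hlim
  exact hK.closed.mem_of_tendsto hlim (Eventually.of_forall hseq)

/-- transversal part -/
noncomputable def trv (k : ℕ) (x : En n) : En n :=
  WithLp.toLp 2 fun i => if i.val < k then 0 else x i

lemma trv_apply (k : ℕ) (x : En n) (i : Fin n) : trv k x i = if i.val < k then 0 else x i := rfl

lemma ones_apply (n k : ℕ) (i : Fin n) : ones n k i = if i.val < k then 1 else 0 := rfl

/-- `ones` as a sum of basis vectors. -/
lemma map_ones (T : En n ≃L[ℝ] En n) (a : ℝ)
    (hT : ∀ i : Fin n, i.val < k → T (EuclideanSpace.single i 1) = EuclideanSpace.single i a) :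
    T (ones n k) = a • ones n k := by
  have h1 : ones n k = ∑ i : Fin n, (if i.val < k then (1:ℝ) else 0) •
      EuclideanSpace.single i (1 : ℝ) := by
    ext j
    simp only [WithLp.ofLp_sum, WithLp.ofLp_smul, Finset.sum_apply, Pi.smul_apply, smul_eq_mul,
      PiLp.single_apply, ones_apply]
    simp
  have h2 : a • ones n k = ∑ i : Fin n, (if i.val < k then (1:ℝ) else 0) •
      EuclideanSpace.single i a := by
    ext j
    simp only [WithLp.ofLp_sum, WithLp.ofLp_smul, Finset.sum_apply, Pi.smul_apply, smul_eq_mul,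
      PiLp.single_apply, ones_apply]
    simp
  rw [h2]
  conv_lhs => rw [h1]
  rw [map_sum]
  apply Finset.sum_congr rfl
  intro i _
  rw [map_smul]
  by_cases hi : i.val < k
  · rw [hT i hi]
  · simp [hi]

lemma norm_le_sum_abs (y : En n) : ‖y‖ ≤ ∑ i, |y i| := by
  have h1 : y = ∑ i, y i • EuclideanSpace.single i (1 : ℝ) := by
    ext j
    simp [Pi.single_apply]
  calc ‖y‖ = ‖∑ i, y i • EuclideanSpace.single i (1 : ℝ)‖ := by rw [← h1]
    _ ≤ ∑ i, ‖y i • EuclideanSpace.single i (1 : ℝ)‖ := norm_sum_le _ _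
    _ = ∑ i, |y i| := by
        apply Finset.sum_congr rfl
        intro i _
        rw [norm_smul]; simp

lemma ones_nonneg (n k : ℕ) (i : Fin n) : 0 ≤ ones n k i := by
  rw [ones_apply]; split_ifs <;> norm_num

/-- Points far out in the arms, with transversal part at most twice that of a point of the wedge
with bounded arm coordinates, belong to the wedge. -/
theorem far_mem (hW0 : Stmt_rescale n k) (hP1 : P1 n k) (hP2 : P2 n k) {T : ℝ} (hT : 0 ≤ T) :
    ∃ S r : ℝ, 1 ≤ S ∧ 0 < r ∧ r ≤ 1 ∧ ∀ K, Wedge n k K → ∀ q ∈ K, q.2 ≤ T + 1 →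
      (∀ i : Fin n, i.val < k → q.1 i ≤ T + 1) → ∀ lam : ℝ, |lam| ≤ 2 → ∀ p : En n × ℝ,
      S ≤ p.2 → (∀ i : Fin n, i.val < k → S ≤ p.1 i) →
      (∀ j : Fin n, k ≤ j.val → |p.1 j - lam * q.1 j| ≤ r) → p ∈ K := by
  obtain ⟨δ₁, hδ₁, hP1⟩ := hP1
  set N : ℝ := (n : ℝ) + 1 with hN
  have hN1 : 1 ≤ N := by simp [hN]
  have hN0 : 0 < N := by linarith
  obtain ⟨C, hC, hP2⟩ := hP2 (δ₁ / (4 * N)) (by positivity)
  refine ⟨C * (T + 1), min 1 (δ₁ / (4 * N ^ 2)), ?_, by positivity, min_le_left _ _, ?_⟩
  · nlinarith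
  intro K hK q hq hq2 hq1 lam hlam p hp2 hp1 hpj
  set a : ℝ := C * (T + 1) with ha
  have ha1 : 1 ≤ a := by nlinarith
  have ha0 : 0 < a := by linarith
  set r : ℝ := min 1 (δ₁ / (4 * N ^ 2)) with hr
  obtain ⟨A, hA1, hA2, hKA⟩ := hW0 K hK (fun _ => a) a (fun _ => ha0) ha0
  have hAones : A (ones n k) = a • ones n k := map_ones A a hA2
  have hAones' : A.symm (ones n k) = a⁻¹ • ones n k := by
    rw [ContinuousLinearEquiv.symm_apply_eq, map_smul, hAones, smul_smul, inv_mul_cancel₀ ha0.ne',
      one_smul]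
  -- arms coordinates of `A.symm`
  have hAs : ∀ x, ∀ i : Fin n, i.val < k → A.symm x i = x i / a := by
    intro x i hi
    have h1 := hA1 (A.symm x) i hi
    rw [ContinuousLinearEquiv.apply_symm_apply] at h1
    rw [h1]; field_simp
  -- the point `q` in the new coordinates
  have hq' : ((A.symm q.1, q.2 / a) : En n × ℝ) ∈ {p : En n × ℝ | (A p.1, a * p.2) ∈ K} := by
    simp only [Set.mem_ofPred_eq, ContinuousLinearEquiv.apply_symm_apply]
    rw [mul_div_cancel₀ _ ha0.ne']
    exact hq
  have hT1 : 0 < T + 1 := by linarith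
  have hqj : ∀ j : Fin n, k ≤ j.val → |A.symm q.1 j| ≤ δ₁ / (4 * N) := by
    apply hP2 _ hKA _ hq'
    · simp only [ha]
      rw [div_le_div_iff₀ (by positivity) (by positivity)]
      nlinarith
    · intro i hi
      simp only
      rw [hAs _ _ hi, ha, div_le_div_iff₀ (by positivity) (by positivity)]
      have := hq1 i hi
      nlinarith
  -- basis vectors
  have hej : ∀ j : Fin n, k ≤ j.val → ∀ l : Fin n, k ≤ l.val →
      |A.symm (EuclideanSpace.single j 1) l| ≤ 1 := by
    intro j hj l hl
    have h1 := hK.simplex j hj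
    have h2 : ((ones n k + EuclideanSpace.single j 1, (1 : ℝ)) : En n × ℝ) +
        ((a - 1) • ones n k, a - 1) ∈ K := by
      apply wedge_add_mem hK h1
      · simp only; linarith
      · intro i hi
        simp only [PiLp.smul_apply, smul_eq_mul]
        exact mul_nonneg (by linarith) (ones_nonneg n k i)
      · intro i hi
        simp only [PiLp.smul_apply, smul_eq_mul, ones_apply, if_neg (not_lt.mpr hi), mul_zero]
    have h3 : ((ones n k + A.symm (EuclideanSpace.single j 1), (1 : ℝ)) : En n × ℝ) ∈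
        {p : En n × ℝ | (A p.1, a * p.2) ∈ K} := by
      simp only [Set.mem_ofPred_eq, map_add, ContinuousLinearEquiv.apply_symm_apply, hAones]
      convert h2 using 1
      ext1
      · simp only [Prod.fst_add]
        rw [sub_smul, one_smul]; abel
      · simp
    have h4 := hKA.box _ h3 (le_refl _) (by
      intro i hi
      simp only [PiLp.add_apply]
      rw [hAs _ _ hi, ones_apply, if_pos hi]
      have : (EuclideanSpace.single j (1:ℝ)) i = 0 := by
        rw [PiLp.single_apply, if_neg]
        intro h; rw [h] at hi; omega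
      rw [this]; simp) l hl
    simp only [PiLp.add_apply] at h4
    rwa [ones_apply, if_neg (not_lt.mpr hl), zero_add] at h4
  -- transversal part of `p`
  set y : En n := A.symm (trv k p.1) with hy
  have hdecq : q.1 = (∑ i : Fin n, (if i.val < k then q.1 i else 0) •
      EuclideanSpace.single i (1 : ℝ)) + trv k q.1 := by
    ext j
    simp only [PiLp.add_apply, trv_apply, WithLp.ofLp_sum, WithLp.ofLp_smul, Finset.sum_apply,
      Pi.smul_apply, smul_eq_mul]
    by_cases hj : j.val < k
    · rw [if_pos hj, add_zero, Finset.sum_eq_single j]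
      · simp [hj]
      · intro b _ hb; simp [hb.symm]
      · simp
    · rw [if_neg hj, Finset.sum_eq_zero, zero_add]
      intro b _
      by_cases hb : b.val < k
      · have : j ≠ b := by rintro rfl; exact hj hb
        simp [this]
      · simp [hb]
  have htq : ∀ l : Fin n, k ≤ l.val → A.symm (trv k q.1) l = A.symm q.1 l := by
    intro l hl
    have h1 : A.symm q.1 = (∑ i : Fin n, (if i.val < k then q.1 i else 0) •
        A.symm (EuclideanSpace.single i (1 : ℝ))) + A.symm (trv k q.1) := by
      conv_lhs => rw [hdecq]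
      rw [map_add, map_sum]
      simp only [map_smul]
    rw [h1]
    simp only [PiLp.add_apply, WithLp.ofLp_sum, WithLp.ofLp_smul, Finset.sum_apply,
      Pi.smul_apply, smul_eq_mul]
    rw [Finset.sum_eq_zero, zero_add]
    intro i _
    by_cases hi : i.val < k
    · have h2 : A.symm (EuclideanSpace.single i (1 : ℝ)) =
          EuclideanSpace.single i (a⁻¹) := by
        rw [ContinuousLinearEquiv.symm_apply_eq]
        have h3 : (EuclideanSpace.single i (a⁻¹) : En n) = a⁻¹ • EuclideanSpace.single i (1:ℝ) := by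
          ext m; simp
        rw [h3, map_smul, hA2 i hi]
        ext m
        simp only [PiLp.smul_apply, PiLp.single_apply, smul_eq_mul]
        split_ifs
        · field_simp
        · simp
      have hli : l ≠ i := by intro h; rw [h] at hl; omega
      rw [h2, PiLp.single_apply, if_neg hli, mul_zero]
    · simp [hi]
  -- error vector
  set e : En n := trv k p.1 - lam • trv k q.1 with he
  have hej' : ∀ l : Fin n, |e l| ≤ r := by
    intro l
    simp only [he, PiLp.sub_apply, PiLp.smul_apply, smul_eq_mul, trv_apply]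
    by_cases hl : l.val < k
    · rw [if_pos hl, if_pos hl]; simp only [mul_zero, sub_zero, abs_zero]
      rw [hr]; positivity
    · rw [if_neg hl, if_neg hl]
      exact hpj l (not_lt.mp hl)
  have he0 : ∀ l : Fin n, l.val < k → e l = 0 := by
    intro l hl
    simp only [he, PiLp.sub_apply, PiLp.smul_apply, smul_eq_mul, trv_apply, if_pos hl]
    ring
  have hAe : ∀ l : Fin n, k ≤ l.val → |A.symm e l| ≤ N * r := by
    intro l hl
    have h1 : e = ∑ j, e j • EuclideanSpace.single j (1 : ℝ) := by
      ext j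
      simp [Pi.single_apply]
    have h2 : A.symm e l = ∑ j, e j * A.symm (EuclideanSpace.single j (1:ℝ)) l := by
      conv_lhs => rw [h1]
      rw [map_sum]
      simp only [map_smul, WithLp.ofLp_sum, WithLp.ofLp_smul, Finset.sum_apply,
        Pi.smul_apply, smul_eq_mul]
    rw [h2]
    refine (Finset.abs_sum_le_sum_abs _ _).trans ?_
    have h3 : ∀ j ∈ Finset.univ, |e j * A.symm (EuclideanSpace.single j (1:ℝ)) l| ≤ r := by
      intro j _
      rw [abs_mul]
      by_cases hj : j.val < k
      · rw [he0 j hj]; simp only [abs_zero, zero_mul]; rw [hr]; positivity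
      · have := hej j (not_lt.mp hj) l hl
        calc |e j| * |A.symm (EuclideanSpace.single j (1:ℝ)) l| ≤ r * 1 :=
              mul_le_mul (hej' j) this (abs_nonneg _) (by rw [hr]; positivity)
          _ = r := mul_one r
    refine (Finset.sum_le_card_nsmul _ _ _ h3).trans ?_
    simp only [Finset.card_univ, Fintype.card_fin, nsmul_eq_mul]
    apply mul_le_mul_of_nonneg_right _ (by rw [hr]; positivity)
    simp [hN]
  have hyl : ∀ l : Fin n, |y l| ≤ δ₁ / N := by
    intro l
    by_cases hl : l.val < k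
    · rw [hy, hAs _ _ hl, trv_apply, if_pos hl]
      simp only [zero_div, abs_zero]; positivity
    · have hl' := not_lt.mp hl
      have h1 : y = lam • A.symm (trv k q.1) + A.symm e := by
        rw [hy, he, map_sub, map_smul]; abel
      rw [h1]
      simp only [PiLp.add_apply, PiLp.smul_apply, smul_eq_mul]
      rw [htq l hl']
      have h2 := hqj l hl'
      have h3 := hAe l hl'
      have h4 : |lam * A.symm q.1 l| ≤ 2 * (δ₁ / (4 * N)) := by
        rw [abs_mul]
        exact mul_le_mul hlam h2 (abs_nonneg _) (by norm_num)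
      have h5 : N * r ≤ δ₁ / (4 * N) := by
        have h51 : r ≤ δ₁ / (4 * N ^ 2) := min_le_right _ _
        calc N * r ≤ N * (δ₁ / (4 * N ^ 2)) := mul_le_mul_of_nonneg_left h51 hN0.le
          _ = δ₁ / (4 * N) := by field_simp
      have h6 : 2 * (δ₁ / (4 * N)) + δ₁ / (4 * N) ≤ δ₁ / N := by
        have : δ₁ / (4 * N) = (δ₁ / N) / 4 := by field_simp
        rw [this]
        have : 0 < δ₁ / N := by positivity
        linarith
      exact (abs_add_le _ _).trans (by linarith)
  have hynorm : ‖y‖ ≤ δ₁ := by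
    refine (norm_le_sum_abs y).trans ?_
    refine (Finset.sum_le_card_nsmul _ _ _ (fun l _ => hyl l)).trans ?_
    simp only [Finset.card_univ, Fintype.card_fin, nsmul_eq_mul]
    rw [mul_div_assoc', div_le_iff₀ hN0]
    rw [hN]
    nlinarith
  have hmem := hP1 _ hKA y (by
    intro i hi
    rw [hy, hAs _ _ hi, trv_apply, if_pos hi, zero_div]) hynorm
  simp only [Set.mem_ofPred_eq, map_add, hAones, mul_one, hy,
    ContinuousLinearEquiv.apply_symm_apply] at hmem
  have hfin := wedge_add_mem hK (q := (p.1 - a • ones n k - trv k p.1, p.2 - a)) hmem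
    (by simp only; linarith)
    (by
      intro i hi
      simp only [PiLp.sub_apply, PiLp.smul_apply, smul_eq_mul, ones_apply, trv_apply, if_pos hi]
      have := hp1 i hi
      linarith)
    (by
      intro i hi
      simp only [PiLp.sub_apply, PiLp.smul_apply, smul_eq_mul, ones_apply, trv_apply,
        if_neg (not_lt.mpr hi)]
      ring)
  convert hfin using 1
  ext1
  · simp only [Prod.fst_add]; abel
  · simp

/-- Points far out in the arms belong to the approximating epigraph, with some room. -/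
theorem far_epi (hW0 : Stmt_rescale n k) (hball : Stmt_ballMem n) (hbox : Stmt_approxBox n k)
    (hP1 : P1 n k) (hP2 : P2 n k) {T : ℝ} (hT : 1 ≤ T) :
    ∃ S : ℝ, 2 ≤ S ∧ ∀ T' : ℝ, S ≤ T' → ∃ R ε s : ℝ, 0 < R ∧ 0 < ε ∧ 0 < s ∧
      ∀ K, Wedge n k K → ∀ (Ω : Set (En n)) (u : En n → ℝ), AMC Ω u →
        Close R ε K (epi Ω u) → ∀ x ∈ Ω, u x ≤ T → (∀ i : Fin n, i.val < k → x i ≤ T) →
        ∀ lam : ℝ, |lam| ≤ 2 → ∀ p : En n × ℝ, S ≤ p.2 → p.2 ≤ T' →
        (∀ i : Fin n, i.val < k → S ≤ p.1 i ∧ p.1 i ≤ T') →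
        (∀ j : Fin n, k ≤ j.val → p.1 j = lam * x j) → (p.1, p.2 - s) ∈ epi Ω u := by
  obtain ⟨S₀, r, hS₀, hr, hr1, hfar⟩ := far_mem hW0 hP1 hP2 (T := T) (by linarith)
  refine ⟨S₀ + 1, by linarith, fun T' hT' => ?_⟩
  obtain ⟨R₀, ε₀, hR₀, hε₀, hbx⟩ := hbox T 1 hT one_pos (le_refl _)
  set B : ℝ := ((n : ℝ) + 1) * (T' + 2 * (T + 1)) + 1 with hB
  have hT'0 : 0 < T' := by linarith
  have hB0 : 0 < B := by positivity
  refine ⟨max R₀ B, min ε₀ (r / 8), r / 4, lt_max_of_lt_left hR₀, by positivity, by positivity, ?_⟩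
  intro K hK Ω u hu hclose x hx hux hxi lam hlam p hp2 hp2' hp1 hpj
  have hbx' := hbx K hK Ω u hu (close_mono hclose (le_max_left _ _) (min_le_left _ _)) (x, u x)
    ⟨hx, le_refl _⟩ hux hxi
  obtain ⟨hux0, hxi0, hxj⟩ := hbx'
  simp only at hux0 hxi0 hxj
  -- a point of `K` near `(x, u x)`
  have hxabs : ∀ i : Fin n, |x i| ≤ T + 1 := by
    intro i
    by_cases hi : i.val < k
    · rw [abs_le]; exact ⟨by linarith [hxi0 i hi], by linarith [hxi i hi]⟩
    · exact hxj i (not_lt.mp hi)
  have hxnorm : ‖x‖ ≤ (n : ℝ) * (T + 1) := by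
    refine (norm_le_sum_abs x).trans ?_
    refine (Finset.sum_le_card_nsmul _ _ _ (fun l _ => hxabs l)).trans (le_of_eq ?_)
    rw [Finset.card_univ, Fintype.card_fin, nsmul_eq_mul]
  have hn0 : (0 : ℝ) ≤ n := Nat.cast_nonneg n
  have hPnorm : ‖((x, u x) : En n × ℝ)‖ ≤ max R₀ B := by
    refine le_trans ?_ (le_max_right _ _)
    rw [Prod.norm_mk]
    apply max_le
    · refine hxnorm.trans ?_
      rw [hB]; nlinarith
    · rw [Real.norm_eq_abs, abs_le]
      constructor
      · have : 1 ≤ B := by rw [hB]; nlinarith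
        linarith
      · rw [hB]; nlinarith
  obtain ⟨q, hq, hPq⟩ := hclose.2 (x, u x) ⟨hx, le_refl _⟩ hPnorm
  have hε8 : min ε₀ (r / 8) ≤ r / 8 := min_le_right _ _
  have hPq1 : ‖x - q.1‖ ≤ r / 8 := by
    refine le_trans ?_ (hPq.trans hε8)
    exact norm_fst_le ((x, u x) - q)
  have hPq2 : |u x - q.2| ≤ r / 8 := by
    refine le_trans ?_ (hPq.trans hε8)
    exact norm_snd_le ((x, u x) - q)
  have hqi : ∀ i, |x i - q.1 i| ≤ r / 8 := by
    intro i
    have h1 := PiLp.norm_apply_le (x - q.1) i
    rw [Real.norm_eq_abs, PiLp.sub_apply] at h1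
    exact h1.trans hPq1
  have hq2 : q.2 ≤ T + 1 := by
    have := (abs_le.mp hPq2).1; linarith
  have hq1 : ∀ i : Fin n, i.val < k → q.1 i ≤ T + 1 := by
    intro i hi
    have := (abs_le.mp (hqi i)).1
    linarith [hxi i hi]
  have hsub : Metric.closedBall p (r / 2) ⊆ K := by
    intro p' hp'
    rw [Metric.mem_closedBall, dist_eq_norm] at hp'
    have h1 : ‖p'.1 - p.1‖ ≤ r / 2 := (norm_fst_le (p' - p)).trans hp'
    have h2 : |p'.2 - p.2| ≤ r / 2 := (norm_snd_le (p' - p)).trans hp'
    have h3 : ∀ i, |p'.1 i - p.1 i| ≤ r / 2 := by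
      intro i
      have h4 := PiLp.norm_apply_le (p'.1 - p.1) i
      rw [Real.norm_eq_abs, PiLp.sub_apply] at h4
      exact h4.trans h1
    apply hfar K hK q hq hq2 hq1 lam hlam
    · have := (abs_le.mp h2).1; linarith
    · intro i hi
      have := (abs_le.mp (h3 i)).1
      linarith [(hp1 i hi).1]
    · intro j hj
      have h5 : p'.1 j - lam * q.1 j = (p'.1 j - p.1 j) + lam * (x j - q.1 j) := by
        rw [hpj j hj]; ring
      rw [h5]
      refine (abs_add_le _ _).trans ?_
      have h6 : |lam * (x j - q.1 j)| ≤ 2 * (r / 8) := by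
        rw [abs_mul]; exact mul_le_mul hlam (hqi j) (abs_nonneg _) (by norm_num)
      linarith [h3 j]
  have hpabs : ∀ i : Fin n, |p.1 i| ≤ T' + 2 * (T + 1) := by
    intro i
    by_cases hi : i.val < k
    · rw [abs_le]
      obtain ⟨h1, h2⟩ := hp1 i hi
      constructor <;> linarith
    · rw [hpj i (not_lt.mp hi), abs_mul]
      have := mul_le_mul hlam (hxabs i) (abs_nonneg _) (by norm_num)
      linarith
  have hpnorm : ‖p.1‖ ≤ (n : ℝ) * (T' + 2 * (T + 1)) := by
    refine (norm_le_sum_abs p.1).trans ?_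
    refine (Finset.sum_le_card_nsmul _ _ _ (fun l _ => hpabs l)).trans (le_of_eq ?_)
    rw [Finset.card_univ, Fintype.card_fin, nsmul_eq_mul]
  have hpn : ‖p‖ + r / 2 ≤ max R₀ B := by
    refine le_trans ?_ (le_max_right _ _)
    have h1 : ‖p‖ ≤ ((n : ℝ) + 1) * (T' + 2 * (T + 1)) := by
      rw [Prod.norm_def]
      apply max_le
      · refine hpnorm.trans ?_
        nlinarith
      · rw [Real.norm_eq_abs, abs_le]
        constructor
        · nlinarith
        · nlinarith
    rw [hB]; linarith
  have hcl : IsClosed (epi Ω u) := hu.cl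
  have hcv : Convex ℝ (epi Ω u) := by
    have h1 := (strictConvexOn_of_hess hu.op hu.cv hu.sm hu.pos).convexOn
    exact h1.convex_epigraph
  have hfin := hball K (epi Ω u) (max R₀ B) (min ε₀ (r / 8)) (r / 2) p hcl hcv hclose hpn
    (by positivity) (by linarith) hsub
  apply hfin
  rw [Metric.mem_closedBall, dist_eq_norm]
  have h7 : ((p.1, p.2 - r / 4) : En n × ℝ) - p = (0, -(r / 4)) := by
    ext1
    · simp
    · simp
  rw [h7, Prod.norm_mk, norm_zero, Real.norm_eq_abs, abs_neg, abs_of_pos (by positivity)]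
  apply max_le <;> linarith

/-- The height above a tangent plane is nonnegative on the epigraph. -/
lemma Lam_nonneg {Ω : Set (En n)} {u : En n → ℝ} (hu : SC Ω u) (hcv : Convex ℝ Ω) {x : En n}
    (hx : x ∈ Ω) {X : En n} {z : ℝ} (h : (X, z) ∈ epi Ω u) : 0 ≤ Lam u X z x := by
  have h1 := tangent_le hu.op hcv hu.sm hu.pos hx h.1
  rw [fderiv_apply_eq_sum_pd] at h1
  have h2 : u X ≤ z := h.2
  unfold Lam
  have h3 : ∑ i, (X - x) i * pd i u x = ∑ i, pd i u x * (X i - x i) := by
    apply Finset.sum_congr rfl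
    intro i _
    simp [mul_comm]
  rw [h3] at h1
  linarith

/-- The point with arm coordinates `α x_i + β` and transversal coordinates `lam x_j`. -/
noncomputable def pt (k : ℕ) (x : En n) (α β lam : ℝ) : En n :=
  WithLp.toLp 2 fun i => if i.val < k then α * x i + β else lam * x i

lemma pt_apply (k : ℕ) (x : En n) (α β lam : ℝ) (i : Fin n) :
    pt k x α β lam i = if i.val < k then α * x i + β else lam * x i := rfl

lemma Lam_pt (k : ℕ) (u : En n → ℝ) (x : En n) (α β lam z : ℝ) :
    Lam u (pt k x α β lam) z x = z - u x -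
      (α - 1) * (∑ i : Fin n, if i.val < k then x i * pd i u x else 0) -
      β * (∑ i : Fin n, if i.val < k then pd i u x else 0) -
      (lam - 1) * (∑ i : Fin n, if i.val < k then 0 else x i * pd i u x) := by
  unfold Lam
  have h : ∑ i, pd i u x * (pt k x α β lam i - x i) =
      (α - 1) * (∑ i : Fin n, if i.val < k then x i * pd i u x else 0) +
      β * (∑ i : Fin n, if i.val < k then pd i u x else 0) +
      (lam - 1) * (∑ i : Fin n, if i.val < k then 0 else x i * pd i u x) := by
    rw [Finset.mul_sum, Finset.mul_sum, Finset.mul_sum, ← Finset.sum_add_distrib,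
      ← Finset.sum_add_distrib]
    apply Finset.sum_congr rfl
    intro i _
    rw [pt_apply]
    split_ifs <;> ring
  rw [h]; ring

lemma Lam_ones (k : ℕ) (u : En n → ℝ) (x : En n) (M : ℝ) :
    Lam u (M • ones n k) M x = M - u x +
      (∑ i : Fin n, if i.val < k then x i * pd i u x else 0) -
      M * (∑ i : Fin n, if i.val < k then pd i u x else 0) +
      (∑ i : Fin n, if i.val < k then 0 else x i * pd i u x) := by
  have h : (M • ones n k : En n) = pt k x 0 M 0 := by
    ext i
    rw [PiLp.smul_apply, ones_apply, pt_apply]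
    split_ifs <;> simp
  rw [h, Lam_pt]; ring

theorem cellGeom_of (hW0 : Stmt_rescale n k) (hball : Stmt_ballMem n)
    (hbox : Stmt_approxBox n k) (haball : Stmt_approxBall n k) : Stmt_cellGeom n k := by
  intro _ _ hP1 hP2 τ hτ hτ1 T hT
  obtain ⟨S, hS, hfar⟩ := far_epi hW0 hball hbox hP1 hP2 hT
  obtain ⟨c, hc, hab⟩ := haball hP1
  obtain ⟨R₂, ε₂, hR₂, hε₂, hab⟩ := hab 1 (1 / 2) (le_refl _) (by norm_num) (by norm_num)
  set σ : ℝ := 2 * S / τ with hσ
  have hσ0 : 0 < σ := by positivity
  set T' : ℝ := (1 + σ) * T + 2 * S with hT'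
  have hST' : S ≤ T' := by
    have : 0 ≤ (1 + σ) * T := by positivity
    rw [hT']; linarith
  obtain ⟨R₁, ε₁, s, hR₁, hε₁, hs, hfar⟩ := hfar T' hST'
  set η : ℝ := min (τ / 2) (1 / σ) with hη
  have hη0 : 0 < η := by positivity
  refine ⟨max R₁ R₂, min ε₁ ε₂, 1 / η, 2 * S, lt_max_of_lt_left hR₁, by positivity,
    by positivity, by linarith, ?_⟩
  intro K hK Ω u hu hclose x hx hux hux' hxi
  have hf := hfar K hK Ω u hu (close_mono hclose (le_max_left _ _) (min_le_left _ _)) x hx hux'
    (fun i hi => (hxi i hi).2)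
  have hg := hab K hK Ω u hu (close_mono hclose (le_max_right _ _) (min_le_right _ _))
  have hSC : SC Ω u := hu.toAMLoc.toSC
  -- abbreviations
  set G1 : ℝ := ∑ i : Fin n, if i.val < k then x i * pd i u x else 0 with hG1
  set G2 : ℝ := ∑ i : Fin n, if i.val < k then 0 else x i * pd i u x with hG2
  set O1 : ℝ := ∑ i : Fin n, if i.val < k then pd i u x else 0 with hO1
  have hBf : Bf k u x = u x - G1 := rfl
  have hL : ∀ M : ℝ, Lam u (M • ones n k) M x = M - u x + G1 - M * O1 + G2 := fun M =>
    Lam_ones k u x M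
  have hL1 : Lam u (ones n k) 1 x = 1 - u x + G1 - O1 + G2 := by
    have := hL 1
    rwa [one_smul, one_mul] at this
  have hτS : S ≤ σ / 2 * τ := by rw [hσ]; field_simp; exact le_refl _
  -- (a)
  have hC1 : 1 < S / τ := by
    rw [lt_div_iff₀ hτ]; linarith
  have ha : 0 < Bf k u x := by
    have h1 := hf 1 (by norm_num) (pt k x (S / τ) 0 1, S / τ * u x)
      (by
        simp only
        calc S = S / τ * τ := by field_simp
          _ ≤ S / τ * u x := mul_le_mul_of_nonneg_left hux (by positivity))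
      (by
        simp only
        have h2 : S / τ * u x ≤ S / τ * T := mul_le_mul_of_nonneg_left hux' (by positivity)
        have h3 : S / τ * T ≤ (1 + σ) * T := by
          apply mul_le_mul_of_nonneg_right _ (by linarith)
          rw [hσ]
          have : 0 < S / τ := by positivity
          have h4 : 2 * S / τ = 2 * (S / τ) := by ring
          rw [h4]; linarith
        rw [hT']; linarith)
      (by
        intro i hi
        simp only [pt_apply, if_pos hi, add_zero]
        obtain ⟨h5, h6⟩ := hxi i hi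
        constructor
        · calc S = S / τ * τ := by field_simp
            _ ≤ S / τ * x i := mul_le_mul_of_nonneg_left h5 (by positivity)
        · have h2 : S / τ * x i ≤ S / τ * T := mul_le_mul_of_nonneg_left h6 (by positivity)
          have h3 : S / τ * T ≤ (1 + σ) * T := by
            apply mul_le_mul_of_nonneg_right _ (by linarith)
            rw [hσ]
            have : 0 < S / τ := by positivity
            have h4 : 2 * S / τ = 2 * (S / τ) := by ring
            rw [h4]; linarith
          rw [hT']; linarith)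
      (by
        intro j hj
        simp only [pt_apply, if_neg (not_lt.mpr hj)])
    have h2 := Lam_nonneg hSC hu.cv hx h1
    rw [Lam_pt] at h2
    rw [← hG1, ← hG2, ← hO1] at h2
    simp only at h2
    rw [hBf]
    have h3 : (S / τ - 1) * (u x - G1) ≥ s := by nlinarith
    by_contra hneg
    push Not at hneg
    have : (S / τ - 1) * (u x - G1) ≤ 0 :=
      mul_nonpos_of_nonneg_of_nonpos (by linarith) hneg
    linarith
  refine ⟨ha, ?_, ?_, ?_⟩
  · -- (b)
    have h1 := hg (ones n k, 1 / 2) (le_refl _) (by norm_num)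
      (by intro i hi; simp only [ones_apply, if_pos hi]; norm_num)
      (by intro j hj; simp only [ones_apply, if_neg (not_lt.mpr hj), abs_zero]; positivity)
    have h2 := Lam_nonneg hSC hu.cv hx h1
    have h3 : Lam u (ones n k) 1 x = Lam u (ones n k) (1 / 2) x + 1 / 2 := by
      unfold Lam; ring
    rw [h3]; linarith
  · -- (c)
    have hησ : η * σ ≤ 1 := by
      calc η * σ ≤ 1 / σ * σ := mul_le_mul_of_nonneg_right (min_le_right _ _) hσ0.le
        _ = 1 := by field_simp
    have hητ : η ≤ τ / 2 := min_le_left _ _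
    have hησ0 : 0 < η * σ := by positivity
    have hlow : ∀ t : ℝ, τ ≤ t → S ≤ (1 + σ) * t - σ * η := by
      intro t ht
      have h1 : σ * η ≤ σ * (τ / 2) := mul_le_mul_of_nonneg_left hητ hσ0.le
      have h2 : σ * τ ≤ σ * t := mul_le_mul_of_nonneg_left ht hσ0.le
      nlinarith
    have hupp : ∀ t : ℝ, t ≤ T → (1 + σ) * t - σ * η ≤ T' := by
      intro t ht
      have h2 : (1 + σ) * t ≤ (1 + σ) * T := mul_le_mul_of_nonneg_left ht (by positivity)
      rw [hT']; nlinarith
    have h1 := hf (1 + σ * η) (by rw [abs_of_pos (by positivity)]; linarith)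
      (pt k x (1 + σ) (-(σ * η)) (1 + σ * η), (1 + σ) * u x - σ * η)
      (hlow _ hux) (hupp _ hux')
      (by
        intro i hi
        simp only [pt_apply, if_pos hi]
        obtain ⟨h5, h6⟩ := hxi i hi
        exact ⟨by have := hlow _ h5; linarith, by have := hupp _ h6; linarith⟩)
      (by
        intro j hj
        simp only [pt_apply, if_neg (not_lt.mpr hj)])
    have h2 := Lam_nonneg hSC hu.cv hx h1
    rw [Lam_pt] at h2
    rw [← hG1, ← hG2, ← hO1] at h2
    simp only at h2
    rw [hL1, hBf]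
    have h3 : σ * (u x - G1) - σ * η * (1 - O1 + G2) ≥ s := by nlinarith
    have h4 : 0 ≤ σ * ((u x - G1) - η * (1 - O1 + G2)) := by nlinarith
    have h5 : 0 ≤ (u x - G1) - η * (1 - O1 + G2) := by
      by_contra hneg
      push Not at hneg
      have := mul_neg_of_pos_of_neg hσ0 hneg
      linarith
    rw [hBf] at ha
    have h6 : 1 / η * (u x - G1) = (u x - G1) / η := by ring
    rw [h6, le_div_iff₀ hη0]
    nlinarith
  · -- (d)
    have h1 := hf (1 / 2) (by norm_num [abs_of_pos]) (pt k x 0 S (1 / 2), S)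
      (le_refl _) hST'
      (by
        intro i hi
        simp only [pt_apply, if_pos hi]
        constructor <;> linarith)
      (by
        intro j hj
        simp only [pt_apply, if_neg (not_lt.mpr hj)])
    have h2 := Lam_nonneg hSC hu.cv hx h1
    rw [Lam_pt] at h2
    rw [← hG1, ← hG2, ← hO1] at h2
    simp only at h2
    rw [hL, hBf]
    linarith

end Vale.Agent.P252.H747
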